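import Vale.Agent.P159.T1.H757.IndepA
import Vale.Agent.P159.H950.B1

/-!
# P159 T1 (V-H): from a common phase of the wired ends to independent phases
-/

open MeasureTheory Filter Topology
open scoped BigOperators

namespace Vale.Agent.P159.T1.H757

open Vale.Agent.P159 Vale.Agent.P159.UJ Vale.Agent.P159.H950

/-- characters of a region with free sites `I` -/
noncomputable def chJ (R : Finset (ℤ × ℤ)) (I : Set (ℤ × ℤ)) (e : KR R) : Chr Ginf :=
  (grad (hu e.1 e.2) (hv e.1 e.2)).comp (proj I) (proj_cont I)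

/-- differences of a function on the sites along the half-bonds -/
def dW (R : Finset (ℤ × ℤ)) (w : ℤ × ℤ → ℝ) (e : KR R) : ℝ := w (hu e.1 e.2) - w (hv e.1 e.2)

variable {R : Finset (ℤ × ℤ)} {I : Set (ℤ × ℤ)}

lemma chJ_gauge {u : ℤ × ℤ → ℝ} (h0 : ∀ v, v ∉ I → u v = 0) (e : KR R) :
    (chJ R I e).c (fun v => ((u v : ℝ) : T)) = Real.cos (dW R u e) ∧
      (chJ R I e).s (fun v => ((u v : ℝ) : T)) = Real.sin (dW R u e) := by
  have hp : ∀ v, proj I (fun v => ((u v : ℝ) : T)) v = ((u v : ℝ) : T) := by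
    intro v
    by_cases h : v ∈ I
    · rw [proj_of_mem h]
    · rw [proj_of_notMem h, h0 v h]
      rfl
  have h : proj I (fun v => ((u v : ℝ) : T)) (hu e.1 e.2) -
      proj I (fun v => ((u v : ℝ) : T)) (hv e.1 e.2) = ((dW R u e : ℝ) : T) := by
    rw [hp, hp, ← AddCircle.coe_sub]
    rfl
  constructor
  · rw [← cosT_coe, ← h]; rfl
  · rw [← sinT_coe, ← h]; rfl

/-- only the phases of the pinned sites matter -/
theorem Zr_phase (b : ℝ) {w w' : ℤ × ℤ → ℝ} (h : ∀ v, v ∉ I → w v = w' v) (t : KR R → ℝ) :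
    Zr muInf (fun _ : KR R => b / 2) (chJ R I) (t + dW R w) =
      Zr muInf (fun _ : KR R => b / 2) (chJ R I) (t + dW R w') := by
  have e : t + dW R w = (t + dW R w') + dW R (w - w') := by
    funext e
    simp only [Pi.add_apply, dW, Pi.sub_apply]
    ring
  rw [e]
  refine Zr_gauge muInf _ _ (fun v => (((w - w') v : ℝ) : T)) _ (fun e => ?_) _
  exact chJ_gauge (fun v hv => by rw [Pi.sub_apply, h v hv, sub_self]) e

lemma dW_measurable {A : Type*} [MeasurableSpace A] {W : A → ℤ × ℤ → ℝ}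
    (hW : ∀ v, Measurable fun a => W a v) : Measurable fun a => dW R (W a) := by
  refine measurable_pi_lambda _ fun e => ?_
  exact (hW _).sub (hW _)

/-- **Independent phases**: `P a v` is the phase of the pinned site `v`, `W a` any extension of
these phases to the free sites with bounded energy. -/
theorem indep {A : Type*} [MeasurableSpace A] (ν : Measure A) [IsProbabilityMeasure ν] {b : ℝ}
    (hb : 0 ≤ b) {P W : A → ℤ × ℤ → ℝ} (hPW : ∀ a v, v ∉ I → P a v = W a v)
    (hW : ∀ v, Measurable fun a => W a v) {C : ℝ}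
    (hC : ∀ᵐ a ∂ν, ∑ e : KR R, b / 2 * dW R (W a) e ^ 2 ≤ C) {t : KR R → ℝ} {X : ℝ}
    (hX : Zr muInf (fun _ : KR R => b / 2) (chJ R I) t ≤
      Real.exp (-X) * Zr muInf (fun _ : KR R => b / 2) (chJ R I) 0) {m : ℕ} (hm : 1 ≤ m) :
    ∫ a, Zr muInf (fun _ : KR R => b / 2) (chJ R I) (t + dW R (P a)) ∂ν ≤
      Real.exp (m * C / 2 - (1 - 1 / (m : ℝ)) * X) *
        ∫ a, Zr muInf (fun _ : KR R => b / 2) (chJ R I) (dW R (P a)) ∂ν := by
  have h := indep_le muInf (fun _ : KR R => b / 2) (chJ R I) G_div2 (half_nonneg' hb R) ν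
    (s := fun a => dW R (W a)) (dW_measurable hW) hC hX hm
  have e1 : ∀ a, Zr muInf (fun _ : KR R => b / 2) (chJ R I) (t + dW R (P a)) =
      Zr muInf (fun _ : KR R => b / 2) (chJ R I) (t + dW R (W a)) :=
    fun a => Zr_phase b (hPW a) t
  have e2 : ∀ a, Zr muInf (fun _ : KR R => b / 2) (chJ R I) (dW R (P a)) =
      Zr muInf (fun _ : KR R => b / 2) (chJ R I) (dW R (W a)) := by
    intro a
    have := Zr_phase b (hPW a) (0 : KR R → ℝ)
    rwa [zero_add, zero_add] at this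
  simp_rw [e1, e2]
  exact h

section ends

variable {ι : Type*} [Fintype ι]

/-- the phase field with the value `a i` on the end `E i` -/
noncomputable def phE (E : ι → Set (ℤ × ℤ)) (a : ι → ℝ) (v : ℤ × ℤ) : ℝ :=
  ∑ i, a i * (E i).indicator (fun _ => (1 : ℝ)) v

/-- the extension by test functions -/
def phW (w : ι → ℤ × ℤ → ℝ) (a : ι → ℝ) (v : ℤ × ℤ) : ℝ := ∑ i, a i * w i v

lemma dW_phW (w : ι → ℤ × ℤ → ℝ) (a : ι → ℝ) (e : KR R) :
    dW R (phW w a) e = ∑ i, a i * dW R (w i) e := by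
  unfold dW phW
  rw [← Finset.sum_sub_distrib]
  exact Finset.sum_congr rfl fun i _ => by ring

/-- **Independent phases of the ends.** `w i` is `1` on the end `E i` and `0` on the other
pinned sites. -/
theorem indep_ends (ν : Measure (ι → ℝ)) [IsProbabilityMeasure ν] {b : ℝ} (hb : 0 ≤ b)
    {E : ι → Set (ℤ × ℤ)} {w : ι → ℤ × ℤ → ℝ}
    (hw : ∀ i v, v ∉ I → w i v = (E i).indicator (fun _ => (1 : ℝ)) v) {M : ℝ}
    (hν : ∀ᵐ a ∂ν, ∀ i, |a i| ≤ M) {C : ℝ}
    (hC : ∀ i, ∑ e : KR R, b / 2 * dW R (w i) e ^ 2 ≤ C) {t : KR R → ℝ} {X : ℝ}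
    (hX : Zr muInf (fun _ : KR R => b / 2) (chJ R I) t ≤
      Real.exp (-X) * Zr muInf (fun _ : KR R => b / 2) (chJ R I) 0) {m : ℕ} (hm : 1 ≤ m) :
    ∫ a, Zr muInf (fun _ : KR R => b / 2) (chJ R I) (t + dW R (phE E a)) ∂ν ≤
      Real.exp (m * (M ^ 2 * (Fintype.card ι : ℝ) ^ 2 * C) / 2 - (1 - 1 / (m : ℝ)) * X) *
        ∫ a, Zr muInf (fun _ : KR R => b / 2) (chJ R I) (dW R (phE E a)) ∂ν := by
  refine indep ν hb (W := phW w) (fun a v hv => ?_) (fun v => ?_) ?_ hX hm
  · unfold phE phW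
    exact Finset.sum_congr rfl fun i _ => by rw [hw i v hv]
  · unfold phW
    exact Finset.measurable_sum _ fun i _ => (measurable_pi_apply i).mul_const _
  · filter_upwards [hν] with a ha
    have hM : ∀ i, a i ^ 2 ≤ M ^ 2 := by
      intro i
      rw [← sq_abs]
      exact pow_le_pow_left₀ (abs_nonneg _) (ha i) 2
    have h1 : ∀ e : KR R, dW R (phW w a) e ^ 2 ≤
        (M ^ 2 * Fintype.card ι) * ∑ i, dW R (w i) e ^ 2 := by
      intro e
      rw [dW_phW]
      refine (Finset.sum_mul_sq_le_sq_mul_sq Finset.univ a fun i => dW R (w i) e).trans ?_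
      refine mul_le_mul_of_nonneg_right ?_ (Finset.sum_nonneg fun i _ => sq_nonneg _)
      refine (Finset.sum_le_sum fun i _ => hM i).trans (le_of_eq ?_)
      rw [Finset.sum_const, Finset.card_univ, nsmul_eq_mul]
      ring
    calc ∑ e : KR R, b / 2 * dW R (phW w a) e ^ 2
        ≤ ∑ e : KR R, b / 2 * ((M ^ 2 * Fintype.card ι) * ∑ i, dW R (w i) e ^ 2) :=
          Finset.sum_le_sum fun e _ => mul_le_mul_of_nonneg_left (h1 e) (by linarith)
      _ = (M ^ 2 * Fintype.card ι) * ∑ i, ∑ e : KR R, b / 2 * dW R (w i) e ^ 2 := by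
          rw [Finset.sum_comm, Finset.mul_sum]
          refine Finset.sum_congr rfl fun e _ => ?_
          rw [Finset.mul_sum, Finset.mul_sum, Finset.mul_sum]
          exact Finset.sum_congr rfl fun i _ => by ring
      _ ≤ (M ^ 2 * Fintype.card ι) * ∑ _i : ι, C := by
          refine mul_le_mul_of_nonneg_left (Finset.sum_le_sum fun i _ => hC i) (by positivity)
      _ = M ^ 2 * (Fintype.card ι : ℝ) ^ 2 * C := by
          rw [Finset.sum_const, Finset.card_univ, nsmul_eq_mul]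
          ring

end ends

end Vale.Agent.P159.T1.H757
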