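import Vale.Agent.P159.H950.A3

/-!
# P159 T1 (V-H): from a common phase of the wired ends to independent phases, abstract part
-/

open MeasureTheory Filter Topology
open scoped BigOperators

namespace Vale.Agent.P159.T1.H757

open Vale.Agent.P159 Vale.Agent.P159.UJ Vale.Agent.P159.H950

/-- a nonnegative sequence with second differences at most `2 c` cannot drop quickly -/
lemma seq_lower {a : ℕ → ℝ} {c : ℝ} (h0 : ∀ k, 0 ≤ a k)
    (h : ∀ k, a (k + 2) + a k ≤ 2 * a (k + 1) + 2 * c) {m : ℕ} (hm : 1 ≤ m) :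
    (1 - 1 / (m : ℝ)) * a 0 - (m - 1) * c ≤ a 1 := by
  have key : ∀ k : ℕ, a (k + 1) - a k ≤ a 1 - a 0 + 2 * k * c ∧
      a k ≤ a 0 + k * (a 1 - a 0) + k * (k - 1) * c := by
    intro k
    induction k with
    | zero => simp
    | succ k ih =>
      have h1 := h k
      obtain ⟨i1, i2⟩ := ih
      have h1' : a (k + 1 + 1) - a (k + 1) ≤ a (k + 1) - a k + 2 * c := by
        have : a (k + 1 + 1) = a (k + 2) := rfl
        linarith
      push_cast
      constructor
      · linarith
      · have e : a 0 + ((k : ℝ) + 1) * (a 1 - a 0) + ((k : ℝ) + 1) * ((k : ℝ) + 1 - 1) * c =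
            (a 0 + k * (a 1 - a 0) + k * (k - 1) * c) + (a 1 - a 0 + 2 * k * c) := by ring
        rw [e]
        linarith
  have hm0 : (0 : ℝ) < m := by exact_mod_cast hm
  have h4 : 0 ≤ a 0 / m + (a 1 - a 0) + (m - 1) * c := by
    have h5 := div_nonneg ((h0 m).trans (key m).2) hm0.le
    have e : (a 0 + m * (a 1 - a 0) + m * (m - 1) * c) / m =
        a 0 / m + (a 1 - a 0) + (m - 1) * c := by
      field_simp
    rwa [e] at h5
  have e : (1 - 1 / (m : ℝ)) * a 0 = a 0 - a 0 / m := by ring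
  rw [e]
  linarith

section abs

variable {G : Type*} [AddCommGroup G] [TopologicalSpace G] [IsTopologicalAddGroup G]
  [CompactSpace G] [SecondCountableTopology G] [MeasurableSpace G] [BorelSpace G]
  (μ : Measure G) [μ.IsAddHaarMeasure] [IsProbabilityMeasure μ]
  {κ : Type*} [Fintype κ] (J : κ → ℝ) (χ : κ → Chr G)

/-- gauge invariance of the partition function with shifts -/
theorem Zr_gauge (g : G) (s : κ → ℝ)
    (hg : ∀ e, (χ e).c g = Real.cos (s e) ∧ (χ e).s g = Real.sin (s e)) (t : κ → ℝ) :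
    Zr μ J χ (t + s) = Zr μ J χ t := by
  unfold Zr
  rw [← integral_add_right_eq_self (fun x => Real.exp (∑ e, J e *
      ((χ e).c x * Real.cos (t e) - (χ e).s x * Real.sin (t e)))) g]
  congr 1
  ext x
  congr 1
  refine Finset.sum_congr rfl fun e _ => ?_
  rw [Pi.add_apply, Real.cos_add, Real.sin_add, (χ e).c_add, (χ e).s_add, (hg e).1, (hg e).2]
  ring

/-- continuity of the partition function in the shifts -/
theorem Zr_continuous : Continuous (Zr μ J χ) := by
  unfold Zr
  refine continuous_of_dominated (bound := fun _ => Real.exp (∑ e, |J e| * 2)) ?_ ?_ ?_ ?_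
  · intro t
    exact (Zr_cont_integrand J χ t).aestronglyMeasurable
  · intro t
    refine Filter.Eventually.of_forall fun x => ?_
    rw [Real.norm_eq_abs, abs_of_pos (Real.exp_pos _)]
    refine Real.exp_le_exp.2 (Finset.sum_le_sum fun e _ => ?_)
    have a1 : |(χ e).c x * Real.cos (t e)| ≤ 1 := by
      rw [abs_mul]
      exact mul_le_one₀ ((χ e).abs_c_le x) (abs_nonneg _) (Real.abs_cos_le_one _)
    have a2 : |(χ e).s x * Real.sin (t e)| ≤ 1 := by
      rw [abs_mul]
      exact mul_le_one₀ ((χ e).abs_s_le x) (abs_nonneg _) (Real.abs_sin_le_one _)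
    have a3 : |(χ e).c x * Real.cos (t e) - (χ e).s x * Real.sin (t e)| ≤ 2 := by
      have := abs_sub ((χ e).c x * Real.cos (t e)) ((χ e).s x * Real.sin (t e))
      linarith
    calc J e * ((χ e).c x * Real.cos (t e) - (χ e).s x * Real.sin (t e))
        ≤ |J e * ((χ e).c x * Real.cos (t e) - (χ e).s x * Real.sin (t e))| := le_abs_self _
      _ = |J e| * |(χ e).c x * Real.cos (t e) - (χ e).s x * Real.sin (t e)| := abs_mul _ _
      _ ≤ |J e| * 2 := mul_le_mul_of_nonneg_left a3 (abs_nonneg _)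
  · exact integrable_const _
  · refine Filter.Eventually.of_forall fun x => ?_
    refine Real.continuous_exp.comp (continuous_finsetSum _ fun e _ => ?_)
    exact continuous_const.mul ((continuous_const.mul
      (Real.continuous_cos.comp (continuous_apply e))).sub
      (continuous_const.mul (Real.continuous_sin.comp (continuous_apply e))))

/-- `- log (Z(t) / Z(0))` -/
noncomputable def LF (t : κ → ℝ) : ℝ := Real.log (Zr μ J χ 0) - Real.log (Zr μ J χ t)

lemma Zr_eq_LF (t : κ → ℝ) : Zr μ J χ t = Zr μ J χ 0 * Real.exp (-LF μ J χ t) := by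
  unfold LF
  rw [neg_sub, Real.exp_sub, Real.exp_log (Zr_pos μ J χ t), Real.exp_log (Zr_pos μ J χ 0)]
  have := (Zr_pos μ J χ 0).ne'
  field_simp

lemma LF_ge {t : κ → ℝ} {X : ℝ} (hX : Zr μ J χ t ≤ Real.exp (-X) * Zr μ J χ 0) :
    X ≤ LF μ J χ t := by
  have h := Real.log_le_log (Zr_pos μ J χ t) hX
  rw [Real.log_mul (Real.exp_pos _).ne' (Zr_pos μ J χ 0).ne', Real.log_exp] at h
  unfold LF
  linarith

variable (h2 : ∀ g : G, ∃ h : G, h + h = g) (hJ : ∀ e, 0 ≤ J e)

include h2 hJ

lemma LF_nonneg (t : κ → ℝ) : 0 ≤ LF μ J χ t :=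
  sub_nonneg.2 (Real.log_le_log (Zr_pos μ J χ t) (Zr_le μ J χ h2 hJ t))

lemma LF_four (t s : κ → ℝ) :
    LF μ J χ (t + s) + LF μ J χ (t - s) ≤ 2 * LF μ J χ t + 2 * LF μ J χ s := by
  have h := four μ J χ h2 hJ t s
  have p0 := Zr_pos μ J χ 0
  have pt := Zr_pos μ J χ t
  have ps := Zr_pos μ J χ s
  have p1 := Zr_pos μ J χ (t + s)
  have p3 := Zr_pos μ J χ (t - s)
  have hlog := Real.log_le_log (by positivity) h
  rw [Real.log_mul (by positivity) (by positivity), Real.log_mul (by positivity) (by positivity),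
    Real.log_mul (by positivity) (by positivity), Real.log_pow, Real.log_pow,
    Real.log_pow] at hlog
  push_cast at hlog
  unfold LF
  linarith

lemma LF_le (t : κ → ℝ) : LF μ J χ t ≤ (∑ e, J e * t e ^ 2) / 2 := by
  have h := lowerZ μ J χ h2 hJ t
  rw [QQ_zero] at h
  have h3 := Qform_le μ J χ hJ t
  have h4 := Real.log_le_log (Real.exp_pos _) h
  rw [Real.log_exp, Real.log_div (Zr_pos μ J χ t).ne' (Zr_pos μ J χ 0).ne'] at h4
  unfold LF
  linarith

/-- adding a shift of bounded cost does not spoil an upper bound -/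
theorem LF_lower (t s : κ → ℝ) {m : ℕ} (hm : 1 ≤ m) :
    (1 - 1 / (m : ℝ)) * LF μ J χ t - (m - 1) * LF μ J χ s ≤ LF μ J χ (t + s) := by
  have h := seq_lower (a := fun k : ℕ => LF μ J χ (t + (k : ℝ) • s)) (c := LF μ J χ s)
    (fun k => LF_nonneg μ J χ h2 hJ _) (fun k => ?_) hm
  · simpa using h
  · have h3 := LF_four μ J χ h2 hJ (t + ((k : ℝ) + 1) • s) s
    have e1 : t + ((k : ℝ) + 1) • s + s = t + ((k + 2 : ℕ) : ℝ) • s := by
      push_cast
      rw [add_assoc]
      congr 1
      have : ((k : ℝ) + 2) • s = ((k : ℝ) + 1) • s + (1 : ℝ) • s := by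
        rw [← add_smul]; congr 1; ring
      rw [this, one_smul]
    have e2 : t + ((k : ℝ) + 1) • s - s = t + (k : ℝ) • s := by
      rw [add_sub_assoc]
      congr 1
      rw [add_smul, one_smul, add_sub_cancel_right]
    have e3 : t + ((k : ℝ) + 1) • s = t + ((k + 1 : ℕ) : ℝ) • s := by
      push_cast
      rfl
    rw [e1, e2, e3] at h3
    exact h3

/-- **Independent phases.** An upper bound of the partition function with shifts passes to the
average over a further family of shifts of bounded energy. -/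
theorem indep_le {A : Type*} [MeasurableSpace A] (ν : Measure A) [IsProbabilityMeasure ν]
    {s : A → κ → ℝ} (hs : Measurable s) {C : ℝ} (hC : ∀ᵐ a ∂ν, ∑ e, J e * s a e ^ 2 ≤ C)
    {t : κ → ℝ} {X : ℝ} (hX : Zr μ J χ t ≤ Real.exp (-X) * Zr μ J χ 0) {m : ℕ} (hm : 1 ≤ m) :
    ∫ a, Zr μ J χ (t + s a) ∂ν ≤
      Real.exp (m * C / 2 - (1 - 1 / (m : ℝ)) * X) * ∫ a, Zr μ J χ (s a) ∂ν := by
  have hm0 : (0 : ℝ) < m := by exact_mod_cast hm
  have hm1 : (1 : ℝ) ≤ m := by exact_mod_cast hm
  have p0 := Zr_pos μ J χ 0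
  have hu : 0 ≤ 1 - 1 / (m : ℝ) := by
    rw [sub_nonneg, div_le_one hm0]
    exact hm1
  have hXL := LF_ge μ J χ hX
  have h1 : ∫ a, Zr μ J χ (t + s a) ∂ν ≤
      Zr μ J χ 0 * Real.exp ((m - 1) * C / 2 - (1 - 1 / (m : ℝ)) * X) := by
    have h3 := integral_mono_of_nonneg (μ := ν) (f := fun a => Zr μ J χ (t + s a))
      (g := fun _ => Zr μ J χ 0 * Real.exp ((m - 1) * C / 2 - (1 - 1 / (m : ℝ)) * X))
      (Filter.Eventually.of_forall fun a => (Zr_pos μ J χ _).le) (integrable_const _) ?_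
    · simpa using h3
    · filter_upwards [hC] with a ha
      show Zr μ J χ (t + s a) ≤ _
      rw [Zr_eq_LF μ J χ (t + s a)]
      refine mul_le_mul_of_nonneg_left (Real.exp_le_exp.2 ?_) p0.le
      have h4 := LF_lower μ J χ h2 hJ t (s a) hm
      have h5 := LF_le μ J χ h2 hJ (s a)
      have h6 := mul_le_mul_of_nonneg_left hXL hu
      have h7 : ((m : ℝ) - 1) * LF μ J χ (s a) ≤ (m - 1) * (C / 2) :=
        mul_le_mul_of_nonneg_left (by linarith) (by linarith)
      linarith
  have hint : Integrable (fun a => Zr μ J χ (s a)) ν := by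
    refine (integrable_const (Zr μ J χ 0)).mono'
      (((Zr_continuous μ J χ).measurable.comp hs).aestronglyMeasurable) ?_
    refine Filter.Eventually.of_forall fun a => ?_
    rw [Real.norm_eq_abs, abs_of_pos (Zr_pos μ J χ _)]
    exact Zr_le μ J χ h2 hJ _
  have h8 : Zr μ J χ 0 * Real.exp (-(C / 2)) ≤ ∫ a, Zr μ J χ (s a) ∂ν := by
    have h3 := integral_mono_ae (μ := ν) (f := fun _ => Zr μ J χ 0 * Real.exp (-(C / 2)))
      (g := fun a => Zr μ J χ (s a)) (integrable_const _) hint ?_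
    · simpa using h3
    · filter_upwards [hC] with a ha
      show _ ≤ Zr μ J χ (s a)
      rw [Zr_eq_LF μ J χ (s a)]
      refine mul_le_mul_of_nonneg_left (Real.exp_le_exp.2 ?_) p0.le
      have h5 := LF_le μ J χ h2 hJ (s a)
      linarith
  refine h1.trans ?_
  have e : Zr μ J χ 0 * Real.exp ((m - 1) * C / 2 - (1 - 1 / (m : ℝ)) * X) =
      Real.exp (m * C / 2 - (1 - 1 / (m : ℝ)) * X) * (Zr μ J χ 0 * Real.exp (-(C / 2))) := by
    rw [mul_left_comm, ← Real.exp_add]
    congr 2
    ring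
  rw [e]
  exact mul_le_mul_of_nonneg_left h8 (Real.exp_pos _).le

end abs

end Vale.Agent.P159.T1.H757
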