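import Mathlib

/-!
# P159 T1 (Cov1): an explicit subharmonic function in the slit plane

Logarithmic polar coordinates `τ = log |z|`, `s = arg z + π`; `s = 0` is the Dirichlet side and
`s = 2 π` is the Neumann side of the slit.
-/

open Set Filter Topology MeasureTheory
open scoped ContDiff

namespace Vale.Agent.P159.T1.H757

namespace PhiF

/-! ### the convex function -/

/-- `g' x = expNegInvGlue (x - 1)`, `g = 0` on `(-∞, 1]` -/
noncomputable def gg (x : ℝ) : ℝ := ∫ t in (0 : ℝ)..x, expNegInvGlue (t - 1)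

lemma ge_contDiff : ContDiff ℝ ∞ fun t : ℝ => expNegInvGlue (t - 1) :=
  expNegInvGlue.contDiff.comp (contDiff_id.sub contDiff_const)

lemma ge_cont : Continuous fun t : ℝ => expNegInvGlue (t - 1) := ge_contDiff.continuous

lemma ge_nonneg (x : ℝ) : 0 ≤ expNegInvGlue (x - 1) := expNegInvGlue.nonneg _

lemma ge_le_one (x : ℝ) : expNegInvGlue (x - 1) ≤ 1 := by
  unfold expNegInvGlue
  split_ifs with h
  · exact zero_le_one
  · rw [Real.exp_le_one_iff]
    push Not at h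
    have : 0 < (x - 1)⁻¹ := inv_pos.2 h
    linarith

lemma ge_mono : Monotone fun t : ℝ => expNegInvGlue (t - 1) :=
  fun _ _ h => expNegInvGlue.monotone (by linarith)

lemma gg_deriv (x : ℝ) : HasDerivAt gg (expNegInvGlue (x - 1)) x :=
  intervalIntegral.integral_hasDerivAt_right (ge_cont.intervalIntegrable _ _)
    (ge_cont.stronglyMeasurableAtFilter _ _) ge_cont.continuousAt

lemma gg_deriv' : deriv gg = fun x => expNegInvGlue (x - 1) := funext fun x => (gg_deriv x).deriv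

lemma gg_contDiff : ContDiff ℝ ∞ gg := by
  rw [contDiff_infty_iff_deriv]
  refine ⟨fun x => (gg_deriv x).differentiableAt, ?_⟩
  rw [gg_deriv']
  exact ge_contDiff

lemma gg_mono : Monotone gg := by
  refine monotone_of_deriv_nonneg (fun x => (gg_deriv x).differentiableAt) fun x => ?_
  rw [(gg_deriv x).deriv]
  exact ge_nonneg x

lemma gg_zero {x : ℝ} (h : x ≤ 1) : gg x = 0 := by
  unfold gg
  have h1 : ∫ t in (0 : ℝ)..x, expNegInvGlue (t - 1) = ∫ _t in (0 : ℝ)..x, (0 : ℝ) := by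
    refine intervalIntegral.integral_congr fun t ht => ?_
    have h2 : t ≤ max 0 x := (Set.mem_uIcc.1 ht).elim (fun h => h.2.trans (le_max_right _ _))
      fun h => h.2.trans (le_max_left _ _)
    have h3 : max 0 x ≤ 1 := max_le zero_le_one h
    exact expNegInvGlue.zero_of_nonpos (by linarith)
  rw [h1]
  simp

lemma gg_nonneg (x : ℝ) : 0 ≤ gg x := by
  rcases le_total x 1 with h | h
  · rw [gg_zero h]
  · have := gg_mono h
    rwa [gg_zero le_rfl] at this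

lemma gg_four : 0 < gg 4 := by
  by_contra hc
  have h4 : gg 4 = 0 := le_antisymm (not_lt.1 hc) (gg_nonneg 4)
  have h3 : ∀ x, x < 4 → gg x = 0 := fun x hx =>
    le_antisymm (h4 ▸ gg_mono hx.le) (gg_nonneg x)
  have h5 : gg =ᶠ[𝓝 3] fun _ => 0 := by
    filter_upwards [isOpen_Iio.mem_nhds (show (3 : ℝ) ∈ Iio 4 by norm_num)] with x hx
    exact h3 x hx
  have h6 := h5.deriv_eq
  rw [(gg_deriv 3).deriv, deriv_const] at h6
  have := expNegInvGlue.pos_of_pos (show (0 : ℝ) < 3 - 1 by norm_num)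
  linarith

/-- the rescaled convex function -/
noncomputable def GG (c x : ℝ) : ℝ := c * gg (x / c)

/-- its derivative -/
noncomputable def GD (c x : ℝ) : ℝ := expNegInvGlue (x / c - 1)

/-- its second derivative -/
noncomputable def GD2 (c x : ℝ) : ℝ := deriv (fun t : ℝ => expNegInvGlue (t - 1)) (x / c) / c

lemma GG_deriv {c : ℝ} (hc : 0 < c) (x : ℝ) : HasDerivAt (GG c) (GD c x) x := by
  have h := ((gg_deriv (x / c)).comp x ((hasDerivAt_id x).div_const c)).const_mul c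
  refine h.congr_deriv ?_
  unfold GD
  field_simp

lemma GD_deriv {c : ℝ} (x : ℝ) : HasDerivAt (GD c) (GD2 c x) x := by
  have h1 : HasDerivAt (fun t : ℝ => expNegInvGlue (t - 1))
      (deriv (fun t : ℝ => expNegInvGlue (t - 1)) (x / c)) (x / c) :=
    ((ge_contDiff.differentiable (by simp)) (x / c)).hasDerivAt
  have h := h1.comp x ((hasDerivAt_id x).div_const c)
  refine h.congr_deriv ?_
  unfold GD2
  ring

lemma GD_nonneg (c x : ℝ) : 0 ≤ GD c x := ge_nonneg _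

lemma GD_le_one (c x : ℝ) : GD c x ≤ 1 := ge_le_one _

lemma GD2_nonneg {c : ℝ} (hc : 0 < c) (x : ℝ) : 0 ≤ GD2 c x :=
  div_nonneg ge_mono.deriv_nonneg hc.le

lemma GG_contDiff (c : ℝ) : ContDiff ℝ ∞ (GG c) :=
  contDiff_const.mul (gg_contDiff.comp (contDiff_id.div_const c))

lemma GG_nonneg {c : ℝ} (hc : 0 < c) (x : ℝ) : 0 ≤ GG c x := mul_nonneg hc.le (gg_nonneg _)

lemma GG_zero {c : ℝ} (hc : 0 < c) {x : ℝ} (hx : x ≤ c) : GG c x = 0 := by
  unfold GG
  rw [gg_zero ((div_le_one hc).2 hx), mul_zero]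

lemma GG_lower {c : ℝ} (hc : 0 < c) {x : ℝ} (hx : 4 * c ≤ x) : c * gg 4 ≤ GG c x := by
  unfold GG
  refine mul_le_mul_of_nonneg_left (gg_mono ?_) hc.le
  rw [le_div_iff₀ hc]
  exact hx

/-! ### the harmonic function -/

/-- one mode -/
noncomputable def md (l b τ s : ℝ) : ℝ := Real.exp (l * (τ - b)) * Real.sin (l * s)

/-- the other component of the gradient -/
noncomputable def mc (l b τ s : ℝ) : ℝ := Real.exp (l * (τ - b)) * Real.cos (l * s)

lemma md_tau (l b τ s : ℝ) : HasDerivAt (fun t => md l b t s) (l * md l b τ s) τ := by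
  unfold md
  have h1 : HasDerivAt (fun t : ℝ => l * (t - b)) l τ := by
    simpa using ((hasDerivAt_id τ).sub_const b).const_mul l
  refine (h1.exp.mul_const (Real.sin (l * s))).congr_deriv ?_
  ring

lemma md_s (l b τ s : ℝ) : HasDerivAt (fun r => md l b τ r) (l * mc l b τ s) s := by
  unfold md mc
  have h1 : HasDerivAt (fun r : ℝ => l * r) l s := by
    simpa using (hasDerivAt_id s).const_mul l
  refine (h1.sin.const_mul (Real.exp (l * (τ - b)))).congr_deriv ?_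
  ring

lemma mc_s (l b τ s : ℝ) : HasDerivAt (fun r => mc l b τ r) (-(l * md l b τ s)) s := by
  unfold md mc
  have h1 : HasDerivAt (fun r : ℝ => l * r) l s := by
    simpa using (hasDerivAt_id s).const_mul l
  refine (h1.cos.const_mul (Real.exp (l * (τ - b)))).congr_deriv ?_
  ring

/-- the harmonic function -/
noncomputable def Wf (b τ s : ℝ) : ℝ := md (1 / 4) b τ s + md (1 / 3) b τ s - md (5 / 12) b τ s

/-- `∂_τ W` -/
noncomputable def Wt (b τ s : ℝ) : ℝ :=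
  1 / 4 * md (1 / 4) b τ s + 1 / 3 * md (1 / 3) b τ s - 5 / 12 * md (5 / 12) b τ s

/-- `∂_s W` -/
noncomputable def Ws (b τ s : ℝ) : ℝ :=
  1 / 4 * mc (1 / 4) b τ s + 1 / 3 * mc (1 / 3) b τ s - 5 / 12 * mc (5 / 12) b τ s

/-- `∂_τ ∂_τ W = - ∂_s ∂_s W` -/
noncomputable def Wtt (b τ s : ℝ) : ℝ :=
  1 / 4 * (1 / 4 * md (1 / 4) b τ s) + 1 / 3 * (1 / 3 * md (1 / 3) b τ s) -
    5 / 12 * (5 / 12 * md (5 / 12) b τ s)

lemma Wf_tau (b τ s : ℝ) : HasDerivAt (fun t => Wf b t s) (Wt b τ s) τ :=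
  ((md_tau _ b τ s).add (md_tau _ b τ s)).sub (md_tau _ b τ s)

lemma Wt_tau (b τ s : ℝ) : HasDerivAt (fun t => Wt b t s) (Wtt b τ s) τ :=
  (((md_tau _ b τ s).const_mul _).add ((md_tau _ b τ s).const_mul _)).sub
    ((md_tau _ b τ s).const_mul _)

lemma Wf_s (b τ s : ℝ) : HasDerivAt (fun r => Wf b τ r) (Ws b τ s) s :=
  ((md_s _ b τ s).add (md_s _ b τ s)).sub (md_s _ b τ s)

lemma Ws_s (b τ s : ℝ) : HasDerivAt (fun r => Ws b τ r) (-Wtt b τ s) s := by
  refine ((((mc_s _ b τ s).const_mul _).add ((mc_s _ b τ s).const_mul _)).sub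
    ((mc_s _ b τ s).const_mul _)).congr_deriv ?_
  unfold Wtt
  ring

lemma Wf_contDiff (b : ℝ) : ContDiff ℝ ∞ fun p : ℝ × ℝ => Wf b p.1 p.2 := by
  unfold Wf md
  fun_prop

/-! ### second derivatives of compositions -/

lemma iter2 {G G' V V' : ℝ → ℝ} {x G2 V2 : ℝ} (hG : ∀ y, HasDerivAt G (G' y) y)
    (hG' : HasDerivAt G' G2 (V x)) (hV : ∀ y, HasDerivAt V (V' y) y) (hV' : HasDerivAt V' V2 x) :
    iteratedDeriv 2 (fun y => G (V y)) x = G2 * V' x ^ 2 + G' (V x) * V2 := by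
  have e1 : deriv (fun y => G (V y)) = fun y => G' (V y) * V' y :=
    funext fun y => ((hG (V y)).comp y (hV y)).deriv
  have e2 : iteratedDeriv 2 (fun y => G (V y)) = deriv (deriv fun y => G (V y)) := by
    rw [show (2 : ℕ) = 1 + 1 from rfl, iteratedDeriv_succ, iteratedDeriv_one]
  rw [e2, e1]
  have h := (hG'.comp x (hV x)).mul hV'
  have h2 := h.deriv
  refine Eq.trans ?_ (h2.trans ?_)
  · rfl
  · simp only [Function.comp]
    ring

lemma iter2_congr {f h : ℝ → ℝ} {x : ℝ} (hfh : f =ᶠ[𝓝 x] h) :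
    iteratedDeriv 2 f x = iteratedDeriv 2 h x := by
  have e2 : ∀ k : ℝ → ℝ, iteratedDeriv 2 k = deriv (deriv k) := by
    intro k
    rw [show (2 : ℕ) = 1 + 1 from rfl, iteratedDeriv_succ, iteratedDeriv_one]
  rw [e2, e2]
  exact hfh.deriv.deriv_eq

lemma iter2_zero {f : ℝ → ℝ} {x : ℝ} (hf : f =ᶠ[𝓝 x] fun _ => 0) : iteratedDeriv 2 f x = 0 := by
  rw [iter2_congr hf]
  have e2 : iteratedDeriv 2 (fun _ : ℝ => (0 : ℝ)) = deriv (deriv fun _ : ℝ => (0 : ℝ)) := by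
    rw [show (2 : ℕ) = 1 + 1 from rfl, iteratedDeriv_succ, iteratedDeriv_one]
  rw [e2]
  simp

/-! ### bounds for the harmonic function -/

lemma sin_le' {x : ℝ} (hx : 0 ≤ x) : Real.sin x ≤ x := Real.sin_le hx

lemma exp_four : Real.exp 4 ≤ 55 := by
  have h := Real.exp_one_lt_d9.le
  have h2 : Real.exp 4 = Real.exp 1 ^ 4 := by rw [← Real.exp_nat_mul]; norm_num
  have h3 : Real.exp 1 ≤ 2.72 := by linarith
  have h4 : (0 : ℝ) ≤ Real.exp 1 := (Real.exp_pos 1).le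
  rw [h2]
  calc Real.exp 1 ^ 4 ≤ 2.72 ^ 4 := pow_le_pow_left₀ h4 h3 4
    _ ≤ 55 := by norm_num

lemma exp_five : Real.exp 5 ≤ 150 := by
  have h := Real.exp_one_lt_d9.le
  have h2 : Real.exp 5 = Real.exp 1 ^ 5 := by rw [← Real.exp_nat_mul]; norm_num
  have h3 : Real.exp 1 ≤ 2.72 := by linarith
  have h4 : (0 : ℝ) ≤ Real.exp 1 := (Real.exp_pos 1).le
  rw [h2]
  calc Real.exp 1 ^ 5 ≤ 2.72 ^ 5 := pow_le_pow_left₀ h4 h3 5
    _ ≤ 150 := by norm_num

lemma exp_six : Real.exp 6 ≤ 420 := by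
  have h := Real.exp_one_lt_d9.le
  have h2 : Real.exp 6 = Real.exp 1 ^ 6 := by rw [← Real.exp_nat_mul]; norm_num
  have h3 : Real.exp 1 ≤ 2.72 := by linarith
  have h4 : (0 : ℝ) ≤ Real.exp 1 := (Real.exp_pos 1).le
  rw [h2]
  calc Real.exp 1 ^ 6 ≤ 2.72 ^ 6 := pow_le_pow_left₀ h4 h3 6
    _ ≤ 420 := by norm_num

lemma W_high {b τ s : ℝ} (hv : 14 ≤ τ - b) (h0 : 0 ≤ s) (h1 : s ≤ 2 * Real.pi) :
    Wf b τ s ≤ 0 := by
  have hpi := Real.pi_pos
  have hpi3 := Real.pi_lt_d2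
  set y : ℝ := Real.exp ((τ - b) / 12) with hy
  have hy3 : 3 ≤ y := by
    have h2 : (7 : ℝ) / 6 ≤ (τ - b) / 12 := by linarith
    have h3 : Real.exp (7 / 6) ≤ y := Real.exp_le_exp.2 h2
    have h4 : (3 : ℝ) ≤ Real.exp (7 / 6) := by
      have h5 := Real.exp_one_gt_d9
      have h6 : Real.exp (7 / 6) = Real.exp 1 * Real.exp (1 / 6) := by
        rw [← Real.exp_add]; norm_num
      have h7 : 1 / 6 + 1 ≤ Real.exp (1 / 6) := Real.add_one_le_exp _
      rw [h6]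
      nlinarith
    linarith
  have e3 : Real.exp (1 / 4 * (τ - b)) = y ^ 3 := by
    rw [hy, ← Real.exp_nat_mul]
    congr 1
    push_cast
    ring
  have e4 : Real.exp (1 / 3 * (τ - b)) = y ^ 4 := by
    rw [hy, ← Real.exp_nat_mul]
    congr 1
    push_cast
    ring
  have e5 : Real.exp (5 / 12 * (τ - b)) = y ^ 5 := by
    rw [hy, ← Real.exp_nat_mul]
    congr 1
    push_cast
    ring
  have hW : Wf b τ s = y ^ 3 * (Real.sin (1 / 4 * s) + y * Real.sin (1 / 3 * s) -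
      y ^ 2 * Real.sin (5 / 12 * s)) := by
    unfold Wf md
    rw [e3, e4, e5]
    ring
  rw [hW]
  refine mul_nonpos_of_nonneg_of_nonpos (by positivity) ?_
  rcases le_total s Real.pi with hs | hs
  · have h5 : 2 / Real.pi * (5 / 12 * s) ≤ Real.sin (5 / 12 * s) :=
      Real.mul_le_sin (by positivity) (by linarith)
    have h6 : 3 / 12 * s ≤ 2 / Real.pi * (5 / 12 * s) := by
      rw [show 2 / Real.pi * (5 / 12 * s) = (5 / 6 * s) / Real.pi by ring, le_div_iff₀ hpi]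
      nlinarith
    have h3 : Real.sin (1 / 4 * s) ≤ 1 / 4 * s := sin_le' (by positivity)
    have h4 : Real.sin (1 / 3 * s) ≤ 1 / 3 * s := sin_le' (by positivity)
    have h7 : y * Real.sin (1 / 3 * s) ≤ y * (1 / 3 * s) :=
      mul_le_mul_of_nonneg_left h4 (by linarith)
    have h8 : y ^ 2 * (3 / 12 * s) ≤ y ^ 2 * Real.sin (5 / 12 * s) :=
      mul_le_mul_of_nonneg_left (h6.trans h5) (by positivity)
    have h9 : 1 / 4 * s + y * (1 / 3 * s) - y ^ 2 * (3 / 12 * s) ≤ 0 := by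
      have h10 : 1 / 4 * s + y * (1 / 3 * s) - y ^ 2 * (3 / 12 * s) =
          s / 12 * (3 + 4 * y - 3 * y ^ 2) := by ring
      rw [h10]
      exact mul_nonpos_of_nonneg_of_nonpos (by positivity) (by nlinarith)
    linarith
  · have h5 : 1 / 2 ≤ Real.sin (5 / 12 * s) := by
      rw [← Real.sin_pi_div_six]
      rcases le_total (5 / 12 * s) (Real.pi / 2) with h | h
      · exact Real.sin_le_sin_of_le_of_le_pi_div_two (by linarith) h (by linarith)
      · rw [← Real.sin_pi_sub (5 / 12 * s)]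
        exact Real.sin_le_sin_of_le_of_le_pi_div_two (by linarith) (by linarith) (by linarith)
    have h3 : Real.sin (1 / 4 * s) ≤ 1 := Real.sin_le_one _
    have h4 : Real.sin (1 / 3 * s) ≤ 1 := Real.sin_le_one _
    have h7 : y * Real.sin (1 / 3 * s) ≤ y * 1 := mul_le_mul_of_nonneg_left h4 (by linarith)
    have h8 : y ^ 2 * (1 / 2) ≤ y ^ 2 * Real.sin (5 / 12 * s) :=
      mul_le_mul_of_nonneg_left h5 (by positivity)
    nlinarith

lemma W_le {b τ s : ℝ} (h0 : 0 ≤ s) (h1 : s ≤ 2 * Real.pi) : Wf b τ s ≤ 100 * s := by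
  rcases le_total 14 (τ - b) with hv | hv
  · exact (W_high hv h0 h1).trans (by positivity)
  · have hpi := Real.pi_pos
    have h3 : Real.sin (1 / 4 * s) ≤ 1 / 4 * s := sin_le' (by positivity)
    have h4 : Real.sin (1 / 3 * s) ≤ 1 / 3 * s := sin_le' (by positivity)
    have h5 : 0 ≤ Real.sin (5 / 12 * s) :=
      Real.sin_nonneg_of_nonneg_of_le_pi (by positivity) (by linarith)
    have e3 : Real.exp (1 / 4 * (τ - b)) ≤ 55 := (Real.exp_le_exp.2 (by linarith)).trans exp_four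
    have e4 : Real.exp (1 / 3 * (τ - b)) ≤ 150 := (Real.exp_le_exp.2 (by linarith)).trans exp_five
    have h6 : md (1 / 4) b τ s ≤ 55 * (1 / 4 * s) := by
      unfold md
      exact (mul_le_mul_of_nonneg_left h3 (Real.exp_pos _).le).trans
        (mul_le_mul_of_nonneg_right e3 (by positivity))
    have h7 : md (1 / 3) b τ s ≤ 150 * (1 / 3 * s) := by
      unfold md
      exact (mul_le_mul_of_nonneg_left h4 (Real.exp_pos _).le).trans
        (mul_le_mul_of_nonneg_right e4 (by positivity))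
    have h8 : 0 ≤ md (5 / 12) b τ s := mul_nonneg (Real.exp_pos _).le h5
    unfold Wf
    linarith

lemma md_abs (l b τ s : ℝ) : |md l b τ s| ≤ Real.exp (l * (τ - b)) := by
  unfold md
  rw [abs_mul, abs_of_pos (Real.exp_pos _)]
  exact mul_le_of_le_one_right (Real.exp_pos _).le (Real.abs_sin_le_one _)

lemma mc_abs (l b τ s : ℝ) : |mc l b τ s| ≤ Real.exp (l * (τ - b)) := by
  unfold mc
  rw [abs_mul, abs_of_pos (Real.exp_pos _)]
  exact mul_le_of_le_one_right (Real.exp_pos _).le (Real.abs_cos_le_one _)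

lemma W_low {b τ : ℝ} (s : ℝ) (hv : τ - b ≤ 0) : Wf b τ s ≤ 3 * Real.exp (1 / 4 * (τ - b)) := by
  have h3 := (le_abs_self _).trans (md_abs (1 / 4) b τ s)
  have h4 := (le_abs_self _).trans (md_abs (1 / 3) b τ s)
  have h5 := (neg_le_abs _).trans (md_abs (5 / 12) b τ s)
  have e4 : Real.exp (1 / 3 * (τ - b)) ≤ Real.exp (1 / 4 * (τ - b)) :=
    Real.exp_le_exp.2 (by linarith)
  have e5 : Real.exp (5 / 12 * (τ - b)) ≤ Real.exp (1 / 4 * (τ - b)) :=
    Real.exp_le_exp.2 (by linarith)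
  unfold Wf
  linarith

lemma W_two_pi {b τ : ℝ} (hv : τ - b ≤ 0) :
    1 / 2 * Real.exp (1 / 4 * (τ - b)) ≤ Wf b τ (2 * Real.pi) := by
  have a3 : Real.sin (1 / 4 * (2 * Real.pi)) = 1 := by
    rw [show 1 / 4 * (2 * Real.pi) = Real.pi / 2 by ring, Real.sin_pi_div_two]
  have a4 : 0 ≤ Real.sin (1 / 3 * (2 * Real.pi)) :=
    Real.sin_nonneg_of_nonneg_of_le_pi (by positivity) (by linarith [Real.pi_pos])
  have a5 : Real.sin (5 / 12 * (2 * Real.pi)) = 1 / 2 := by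
    rw [show 5 / 12 * (2 * Real.pi) = Real.pi - Real.pi / 6 by ring, Real.sin_pi_sub,
      Real.sin_pi_div_six]
  have e5 : Real.exp (5 / 12 * (τ - b)) ≤ Real.exp (1 / 4 * (τ - b)) :=
    Real.exp_le_exp.2 (by linarith)
  have h4 : 0 ≤ md (1 / 3) b τ (2 * Real.pi) := mul_nonneg (Real.exp_pos _).le a4
  unfold Wf
  have h3 : md (1 / 4) b τ (2 * Real.pi) = Real.exp (1 / 4 * (τ - b)) := by
    unfold md
    rw [a3, mul_one]
  have h5 : md (5 / 12) b τ (2 * Real.pi) = Real.exp (5 / 12 * (τ - b)) * (1 / 2) := by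
    unfold md
    rw [a5]
  rw [h3, h5]
  linarith

lemma Ws_two_pi {b τ : ℝ} (hv : τ - b ≤ -10) : Ws b τ (2 * Real.pi) ≤ 0 := by
  have a3 : Real.cos (1 / 4 * (2 * Real.pi)) = 0 := by
    rw [show 1 / 4 * (2 * Real.pi) = Real.pi / 2 by ring, Real.cos_pi_div_two]
  have a4 : Real.cos (1 / 3 * (2 * Real.pi)) = -(1 / 2) := by
    rw [show 1 / 3 * (2 * Real.pi) = Real.pi - Real.pi / 3 by ring, Real.cos_pi_sub,
      Real.cos_pi_div_three]
  have a5 : Real.cos (5 / 12 * (2 * Real.pi)) = -(Real.sqrt 3 / 2) := by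
    rw [show 5 / 12 * (2 * Real.pi) = Real.pi - Real.pi / 6 by ring, Real.cos_pi_sub,
      Real.cos_pi_div_six]
  have h3 : mc (1 / 4) b τ (2 * Real.pi) = 0 := by
    unfold mc
    rw [a3, mul_zero]
  have h4 : mc (1 / 3) b τ (2 * Real.pi) = -(1 / 2 * Real.exp (1 / 3 * (τ - b))) := by
    unfold mc
    rw [a4]
    ring
  have h5 : mc (5 / 12) b τ (2 * Real.pi) = -(Real.sqrt 3 / 2 * Real.exp (5 / 12 * (τ - b))) := by
    unfold mc
    rw [a5]
    ring
  unfold Ws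
  rw [h3, h4, h5]
  have h6 : Real.exp (5 / 12 * (τ - b)) =
      Real.exp (1 / 3 * (τ - b)) * Real.exp (1 / 12 * (τ - b)) := by
    rw [← Real.exp_add]
    congr 1
    ring
  have h7 : Real.exp (1 / 12 * (τ - b)) ≤ Real.exp (-(5 / 6)) :=
    Real.exp_le_exp.2 (by linarith)
  have h8 : Real.exp (-(5 / 6)) * (Real.sqrt 3 * 5) ≤ 4 := by
    have h9 : Real.sqrt 3 ≤ 1.7321 := by
      rw [Real.sqrt_le_left (by norm_num)]
      norm_num
    have h10 : (5 / 6) + 1 + (5 / 6 : ℝ) ^ 2 / 2 ≤ Real.exp (5 / 6) := by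
      have := Real.quadratic_le_exp_of_nonneg (show (0 : ℝ) ≤ 5 / 6 by norm_num)
      linarith
    have h11 : 0 < Real.exp (5 / 6) := Real.exp_pos _
    rw [Real.exp_neg, inv_mul_le_iff₀ h11]
    nlinarith
  have h12 : 0 < Real.exp (1 / 3 * (τ - b)) := Real.exp_pos _
  have h13 : Real.exp (1 / 12 * (τ - b)) * (Real.sqrt 3 * 5) ≤ 4 :=
    (mul_le_mul_of_nonneg_right h7 (by positivity)).trans h8
  rw [h6]
  nlinarith

lemma Ws_le {b τ : ℝ} (s : ℝ) (hv : τ - b ≤ 14) : Ws b τ s ≤ 400 := by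
  have h3 := (le_abs_self _).trans (mc_abs (1 / 4) b τ s)
  have h4 := (le_abs_self _).trans (mc_abs (1 / 3) b τ s)
  have h5 := (neg_le_abs _).trans (mc_abs (5 / 12) b τ s)
  have e3 : Real.exp (1 / 4 * (τ - b)) ≤ 55 := (Real.exp_le_exp.2 (by linarith)).trans exp_four
  have e4 : Real.exp (1 / 3 * (τ - b)) ≤ 150 := (Real.exp_le_exp.2 (by linarith)).trans exp_five
  have e5 : Real.exp (5 / 12 * (τ - b)) ≤ 420 := (Real.exp_le_exp.2 (by linarith)).trans exp_six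
  unfold Ws
  linarith

/-! ### the potential -/

/-- the level of the cut-off -/
noncomputable def cc (K : ℝ) : ℝ := Real.exp (-(11 / 4)) / 8 * K ^ (-(1 / 4 : ℝ))

/-- the shift -/
noncomputable def bb (K : ℝ) : ℝ := Real.log K + 10

/-- the potential -/
noncomputable def Ph (K τ s : ℝ) : ℝ :=
  Real.smoothTransition (2 * s / (cc K / 100)) * Real.smoothTransition (2 * Real.pi + 2 - s) *
    Real.smoothTransition (2 * (Real.log K + 25 - τ)) * GG (cc K) (Wf (bb K) τ s)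

lemma cc_pos {K : ℝ} (hK : 1 ≤ K) : 0 < cc K := by
  unfold cc
  have : 0 < K := by linarith
  positivity

lemma Ph_contDiff (K : ℝ) : ContDiff ℝ ∞ fun p : ℝ × ℝ => Ph K p.1 p.2 := by
  unfold Ph
  have h1 : ContDiff ℝ ∞ Real.smoothTransition := Real.smoothTransition.contDiff
  have h2 : ContDiff ℝ ∞ fun p : ℝ × ℝ => 2 * p.2 / (cc K / 100) := by fun_prop
  have h3 : ContDiff ℝ ∞ fun p : ℝ × ℝ => 2 * Real.pi + 2 - p.2 := by fun_prop
  have h4 : ContDiff ℝ ∞ fun p : ℝ × ℝ => 2 * (Real.log K + 25 - p.1) := by fun_prop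
  exact (((h1.comp h2).mul (h1.comp h3)).mul (h1.comp h4)).mul
    ((GG_contDiff _).comp (Wf_contDiff _))

lemma Ph_nonneg {K : ℝ} (hK : 1 ≤ K) (τ s : ℝ) : 0 ≤ Ph K τ s := by
  unfold Ph
  exact mul_nonneg (mul_nonneg (mul_nonneg (Real.smoothTransition.nonneg _)
    (Real.smoothTransition.nonneg _)) (Real.smoothTransition.nonneg _)) (GG_nonneg (cc_pos hK) _)

lemma Ph_zero_of_W {K : ℝ} (hK : 1 ≤ K) {τ s : ℝ} (h : Wf (bb K) τ s ≤ cc K) : Ph K τ s = 0 := by
  unfold Ph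
  rw [GG_zero (cc_pos hK) h, mul_zero]

lemma Ph_left {K : ℝ} (hK : 1 ≤ K) {τ s : ℝ} (h : s ≤ min (cc K / 100) (2 * Real.pi)) :
    Ph K τ s = 0 := by
  have hc := cc_pos hK
  rcases le_total s 0 with hs | hs
  · unfold Ph
    rw [Real.smoothTransition.zero_of_nonpos (div_nonpos_of_nonpos_of_nonneg (by linarith)
      (by positivity))]
    simp
  · refine Ph_zero_of_W hK ((W_le hs (h.trans (min_le_right _ _))).trans ?_)
    have := h.trans (min_le_left _ _)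
    linarith

lemma Ph_right (K : ℝ) {τ s : ℝ} (h : 2 * Real.pi + 2 ≤ s) : Ph K τ s = 0 := by
  unfold Ph
  rw [Real.smoothTransition.zero_of_nonpos (x := 2 * Real.pi + 2 - s) (by linarith)]
  simp

lemma Ph_top (K : ℝ) {τ s : ℝ} (h : Real.log K + 25 ≤ τ) : Ph K τ s = 0 := by
  unfold Ph
  rw [Real.smoothTransition.zero_of_nonpos (x := 2 * (Real.log K + 25 - τ)) (by linarith)]
  simp

lemma Ph_high {K : ℝ} (hK : 1 ≤ K) {τ s : ℝ} (h : Real.log K + 24 ≤ τ)
    (hs : s ≤ 2 * Real.pi) : Ph K τ s = 0 := by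
  rcases le_total s 0 with h0 | h0
  · exact Ph_left hK (le_min (h0.trans (by have := cc_pos hK; positivity)) hs)
  · refine Ph_zero_of_W hK ((W_high ?_ h0 hs).trans (cc_pos hK).le)
    unfold bb
    linarith

lemma Ph_bottom {K : ℝ} (hK : 1 ≤ K) {τ s : ℝ}
    (h : τ ≤ -(|4 * Real.log (3 / cc K)| + |bb K|)) : Ph K τ s = 0 := by
  have hc := cc_pos hK
  refine Ph_zero_of_W hK ?_
  have h1 := le_abs_self (4 * Real.log (3 / cc K))
  have h2 := neg_abs_le (bb K)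
  have h3 := abs_nonneg (4 * Real.log (3 / cc K))
  refine (W_low s (by linarith)).trans ?_
  have h4 : Real.exp (1 / 4 * (τ - bb K)) ≤ cc K / 3 := by
    rw [← Real.exp_log (show 0 < cc K / 3 by positivity)]
    refine Real.exp_le_exp.2 ?_
    have h5 : Real.log (cc K / 3) = -Real.log (3 / cc K) := by
      rw [← Real.log_inv, inv_div]
    rw [h5]
    linarith
  linarith

lemma Ph_eq {K τ s : ℝ} (h1 : cc K / 100 / 2 ≤ s) (h2 : s ≤ 2 * Real.pi + 1)
    (h3 : τ ≤ Real.log K + 49 / 2) (hc : 0 < cc K) : Ph K τ s = GG (cc K) (Wf (bb K) τ s) := by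
  unfold Ph
  rw [Real.smoothTransition.one_of_one_le (x := 2 * s / (cc K / 100)),
    Real.smoothTransition.one_of_one_le (x := 2 * Real.pi + 2 - s) (by linarith),
    Real.smoothTransition.one_of_one_le (x := 2 * (Real.log K + 25 - τ)) (by linarith)]
  · ring
  · rw [le_div_iff₀ (by positivity)]
    linarith

/-! locality -/

lemma W_cont_tau (b s : ℝ) : Continuous fun t => Wf b t s :=
  (Wf_contDiff b).continuous.comp (by fun_prop : Continuous fun t : ℝ => (t, s))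

lemma W_cont_s (b τ : ℝ) : Continuous fun r => Wf b τ r :=
  (Wf_contDiff b).continuous.comp (by fun_prop : Continuous fun r : ℝ => (τ, r))

lemma Ph_near_tau {K : ℝ} (hK : 1 ≤ K) {τ s : ℝ} (h : Wf (bb K) τ s ≤ 0) :
    (fun t => Ph K t s) =ᶠ[𝓝 τ] fun _ => 0 := by
  have h1 : ∀ᶠ t in 𝓝 τ, Wf (bb K) t s < cc K :=
    (W_cont_tau (bb K) s).continuousAt.eventually_lt continuousAt_const
      (lt_of_le_of_lt h (cc_pos hK))
  filter_upwards [h1] with t ht
  exact Ph_zero_of_W hK ht.le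

lemma Ph_near_s {K : ℝ} (hK : 1 ≤ K) {τ s : ℝ} (h : Wf (bb K) τ s ≤ 0) :
    (fun r => Ph K τ r) =ᶠ[𝓝 s] fun _ => 0 := by
  have h1 : ∀ᶠ r in 𝓝 s, Wf (bb K) τ r < cc K :=
    (W_cont_s (bb K) τ).continuousAt.eventually_lt continuousAt_const
      (lt_of_le_of_lt h (cc_pos hK))
  filter_upwards [h1] with r hr
  exact Ph_zero_of_W hK hr.le

lemma Ph_sub {K : ℝ} (hK : 1 ≤ K) {τ s : ℝ} (hs : s ≤ 2 * Real.pi) :
    0 ≤ iteratedDeriv 2 (fun t => Ph K t s) τ + iteratedDeriv 2 (fun r => Ph K τ r) s := by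
  have hc := cc_pos hK
  have hpi := Real.pi_gt_three
  rcases lt_or_ge s (min (cc K / 100) (2 * Real.pi)) with h | h
  · have e1 : (fun t => Ph K t s) =ᶠ[𝓝 τ] fun _ => 0 :=
      Filter.Eventually.of_forall fun t => Ph_left hK h.le
    have e2 : (fun r => Ph K τ r) =ᶠ[𝓝 s] fun _ => 0 := by
      filter_upwards [isOpen_Iio.mem_nhds h] with r hr
      exact Ph_left hK (le_of_lt hr)
    rw [iter2_zero e1, iter2_zero e2, add_zero]
  have hcs : cc K / 100 ≤ 1 := by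
    have h1 : cc K ≤ 1 := by
      unfold cc
      have h2 : Real.exp (-(11 / 4)) ≤ 1 := Real.exp_le_one_iff.2 (by norm_num)
      have h3 : K ^ (-(1 / 4 : ℝ)) ≤ 1 := Real.rpow_le_one_of_one_le_of_nonpos hK (by norm_num)
      have h4 : 0 ≤ K ^ (-(1 / 4 : ℝ)) := Real.rpow_nonneg (by linarith) _
      have h5 : 0 ≤ Real.exp (-(11 / 4)) := (Real.exp_pos _).le
      nlinarith
    linarith
  rw [min_eq_left (by linarith)] at h
  have hs0 : 0 ≤ s := le_trans (by positivity) h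
  rcases lt_or_ge τ (Real.log K + 49 / 2) with ht | ht
  · have e1 : (fun t => Ph K t s) =ᶠ[𝓝 τ] fun t => GG (cc K) (Wf (bb K) t s) := by
      filter_upwards [isOpen_Iio.mem_nhds ht] with t ht
      exact Ph_eq (by linarith) (by linarith) (le_of_lt ht) hc
    have e2 : (fun r => Ph K τ r) =ᶠ[𝓝 s] fun r => GG (cc K) (Wf (bb K) τ r) := by
      have h1 : Set.Ioo (cc K / 100 / 2) (2 * Real.pi + 1) ∈ 𝓝 s :=
        isOpen_Ioo.mem_nhds ⟨by linarith, by linarith⟩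
      filter_upwards [h1] with r hr
      exact Ph_eq hr.1.le hr.2.le ht.le hc
    rw [iter2_congr e1, iter2_congr e2,
      iter2 (GG_deriv hc) (GD_deriv _) (fun t => Wf_tau (bb K) t s) (Wt_tau (bb K) τ s),
      iter2 (GG_deriv hc) (GD_deriv _) (fun r => Wf_s (bb K) τ r) (Ws_s (bb K) τ s)]
    have h1 := GD2_nonneg hc (Wf (bb K) τ s)
    have h2 : GD2 (cc K) (Wf (bb K) τ s) * Wt (bb K) τ s ^ 2 +
        GD (cc K) (Wf (bb K) τ s) * Wtt (bb K) τ s +
        (GD2 (cc K) (Wf (bb K) τ s) * Ws (bb K) τ s ^ 2 +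
          GD (cc K) (Wf (bb K) τ s) * -Wtt (bb K) τ s) =
        GD2 (cc K) (Wf (bb K) τ s) * (Wt (bb K) τ s ^ 2 + Ws (bb K) τ s ^ 2) := by ring
    rw [h2]
    positivity
  · have hW : Wf (bb K) τ s ≤ 0 := W_high (by unfold bb; linarith) hs0 hs
    rw [iter2_zero (Ph_near_tau hK hW), iter2_zero (Ph_near_s hK hW), add_zero]

lemma Ph_deriv_top {K : ℝ} (hK : 1 ≤ K) {τ : ℝ} (h : Real.log K + 24 ≤ τ) :
    deriv (fun r => Ph K τ r) (2 * Real.pi) = 0 := by
  have hW : Wf (bb K) τ (2 * Real.pi) ≤ 0 :=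
    W_high (by unfold bb; linarith) (by positivity) le_rfl
  rw [(Ph_near_s hK hW).deriv_eq, deriv_const]

lemma Ph_deriv {K : ℝ} (hK : 1 ≤ K) {τ : ℝ} (h : τ ≤ Real.log K + 24) :
    deriv (fun r => Ph K τ r) (2 * Real.pi) =
      GD (cc K) (Wf (bb K) τ (2 * Real.pi)) * Ws (bb K) τ (2 * Real.pi) := by
  have hc := cc_pos hK
  have hpi := Real.pi_gt_three
  have hcs : cc K ≤ 1 := by
    unfold cc
    have h2 : Real.exp (-(11 / 4)) ≤ 1 := Real.exp_le_one_iff.2 (by norm_num)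
    have h3 : K ^ (-(1 / 4 : ℝ)) ≤ 1 := Real.rpow_le_one_of_one_le_of_nonpos hK (by norm_num)
    have h4 : 0 ≤ K ^ (-(1 / 4 : ℝ)) := Real.rpow_nonneg (by linarith) _
    have h5 : 0 ≤ Real.exp (-(11 / 4)) := (Real.exp_pos _).le
    nlinarith
  have e2 : (fun r => Ph K τ r) =ᶠ[𝓝 (2 * Real.pi)] fun r => GG (cc K) (Wf (bb K) τ r) := by
    have h1 : Set.Ioo (cc K / 100 / 2) (2 * Real.pi + 1) ∈ 𝓝 (2 * Real.pi) :=
      isOpen_Ioo.mem_nhds ⟨by linarith, by linarith⟩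
    filter_upwards [h1] with r hr
    exact Ph_eq hr.1.le hr.2.le (by linarith) hc
  rw [e2.deriv_eq]
  exact ((GG_deriv hc _).comp _ (Wf_s (bb K) τ (2 * Real.pi))).deriv

/-- **(Cov1)** the potential of the tip -/
theorem exists_phi : ∃ c0 : ℝ, 0 < c0 ∧ ∀ K : ℝ, 1 ≤ K → ∃ (Φ : ℝ → ℝ → ℝ) (s0 A : ℝ), 0 < s0 ∧
    ContDiff ℝ ∞ (fun p : ℝ × ℝ => Φ p.1 p.2) ∧
    (∀ τ s, 0 ≤ Φ τ s) ∧
    (∀ τ s, s ≤ s0 → Φ τ s = 0) ∧
    (∀ τ s, 2 * Real.pi + 2 ≤ s → Φ τ s = 0) ∧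
    (∀ τ s, τ ≤ -A → Φ τ s = 0) ∧
    (∀ τ s, Real.log K + 25 ≤ τ → Φ τ s = 0) ∧
    (∀ τ s, Real.log K + 24 ≤ τ → s ≤ 2 * Real.pi → Φ τ s = 0) ∧
    (∀ τ s, s ≤ 2 * Real.pi →
      0 ≤ iteratedDeriv 2 (fun t => Φ t s) τ + iteratedDeriv 2 (fun r => Φ τ r) s) ∧
    (∀ τ, τ ≤ Real.log K → deriv (fun r => Φ τ r) (2 * Real.pi) ≤ 0) ∧
    (∀ τ, deriv (fun r => Φ τ r) (2 * Real.pi) ≤ 400) ∧
    (∀ τ, Real.log K + 24 ≤ τ → deriv (fun r => Φ τ r) (2 * Real.pi) = 0) ∧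
    (∀ τ, -1 ≤ τ → τ ≤ 0 → c0 * K ^ (-(1 / 4 : ℝ)) ≤ Φ τ (2 * Real.pi)) := by
  refine ⟨Real.exp (-(11 / 4)) / 8 * gg 4, mul_pos (by positivity) gg_four, fun K hK => ?_⟩
  have hc := cc_pos hK
  have hlog : 0 ≤ Real.log K := Real.log_nonneg hK
  have hpi := Real.pi_gt_three
  refine ⟨Ph K, min (cc K / 100) (2 * Real.pi), |4 * Real.log (3 / cc K)| + |bb K|,
    lt_min (by positivity) (by positivity), Ph_contDiff K, Ph_nonneg hK,
    fun τ s h => Ph_left hK h, fun τ s h => Ph_right K h, fun τ s h => Ph_bottom hK h,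
    fun τ s h => Ph_top K h, fun τ s h hs => Ph_high hK h hs, fun τ s h => Ph_sub hK h,
    fun τ h => ?_, fun τ => ?_, fun τ h => Ph_deriv_top hK h, fun τ h1 h0 => ?_⟩
  · rw [Ph_deriv hK (by linarith)]
    exact mul_nonpos_of_nonneg_of_nonpos (GD_nonneg _ _)
      (Ws_two_pi (by unfold bb; linarith))
  · rcases le_total τ (Real.log K + 24) with h | h
    · rw [Ph_deriv hK h]
      have h1 : Ws (bb K) τ (2 * Real.pi) ≤ 400 := Ws_le _ (by unfold bb; linarith)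
      have h2 := GD_nonneg (cc K) (Wf (bb K) τ (2 * Real.pi))
      have h3 := GD_le_one (cc K) (Wf (bb K) τ (2 * Real.pi))
      nlinarith
    · rw [Ph_deriv_top hK h]
      norm_num
  · have hcs : cc K ≤ 1 := by
      unfold cc
      have h2 : Real.exp (-(11 / 4)) ≤ 1 := Real.exp_le_one_iff.2 (by norm_num)
      have h3 : K ^ (-(1 / 4 : ℝ)) ≤ 1 := Real.rpow_le_one_of_one_le_of_nonpos hK (by norm_num)
      have h4 : 0 ≤ K ^ (-(1 / 4 : ℝ)) := Real.rpow_nonneg (by linarith) _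
      have h5 : 0 ≤ Real.exp (-(11 / 4)) := (Real.exp_pos _).le
      nlinarith
    rw [Ph_eq (by linarith) (by linarith) (by linarith) hc]
    have h2 : 4 * cc K ≤ Wf (bb K) τ (2 * Real.pi) := by
      refine le_trans ?_ (W_two_pi (b := bb K) (τ := τ) (by unfold bb; linarith))
      have h3 : Real.exp (-(11 / 4)) * K ^ (-(1 / 4 : ℝ)) ≤ Real.exp (1 / 4 * (τ - bb K)) := by
        rw [Real.rpow_def_of_pos (by linarith), ← Real.exp_add]
        refine Real.exp_le_exp.2 ?_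
        unfold bb
        linarith
      unfold cc
      linarith
    refine le_trans (le_of_eq ?_) (GG_lower hc h2)
    unfold cc
    ring

end PhiF

end Vale.Agent.P159.T1.H757
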